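import Vale.Agent.Lib.P078.Main
import Vale.Agent.Lib.P078.Univ.Assemble

namespace Vale.Agent.Results.P078.AllDiffuseMasas

open Vale.Agent.Lib.P078

/-- For every nonzero complex Hilbert space `H` (of any dimension) and every diffuse MASA `A` of
`B(H)`: every self-adjoint operator is `(ε, r)` so-pavable over `A` as soon as `r ε > 1`, some
self-adjoint operator is not `(ε, r)` so-pavable when `r ε < 1`, and so
`⌈1/ε⌉ ≤ n_{A ⊆ B(H)}(ε) ≤ ⌊1/ε⌋ + 1`. -/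
theorem result {H : Type*} [NormedAddCommGroup H] [InnerProductSpace ℂ H] [CompleteSpace H]
    [Nontrivial H] (A : StarSubalgebra ℂ (H →L[ℂ] H)) (hA : IsMASA (fullAlgebra H) A)
    (hd : IsDiffuse A) (ε : ℝ) (hε0 : 0 < ε) (_hε1 : ε < 1) :
    (∀ r : ℕ, 1 < r * ε → AllSoPavable (fullAlgebra H) A ε r) ∧
    (∀ r : ℕ, 1 ≤ r → r * ε < 1 → ¬ AllSoPavable (fullAlgebra H) A ε r) ∧
    ((⌈1 / ε⌉₊ : ℕ) : ℕ∞) ≤ pavingNumber (fullAlgebra H) A ε ∧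
    pavingNumber (fullAlgebra H) A ε ≤ ((⌊1 / ε⌋₊ + 1 : ℕ) : ℕ∞) := by
  obtain ⟨v, hv⟩ := exists_ne (0 : H)
  have hnv : ‖v‖ ≠ 0 := norm_ne_zero_iff.mpr hv
  have hζ : ‖((‖v‖⁻¹ : ℝ) : ℂ) • v‖ = 1 := by
    rw [norm_smul, Complex.norm_real, norm_inv, norm_norm, inv_mul_cancel₀ hnv]
  exact sharp_bounds (S := projSet A) (fun p hp => hp.1) hA.2.1
    (finelyDivisible_of_diffuse hA hd) hζ ε hε0

end Vale.Agent.Results.P078.AllDiffuseMasas
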