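import Vale.Agent.Lib.P078.Mixed.Final

namespace Vale.Agent.Results.P078.AllMasasOfBH

open Vale.Agent.Lib.P078

/-- Two-sided reduction of so-paving over an arbitrary MASA `A` of `B(H)` (`H` any complex Hilbert
space) to paving of finite Hermitian matrices.
(1) If all Hermitian `k × k` matrices, `k` at most the number of minimal projections of `A`, are
`(ε, r₁)` pavable and `r₂ ε > 1`, then every self-adjoint operator is `(ε, r₁ + r₂)` so-pavable
over `A`.
(2) If `A` has at least `k` minimal projections and every self-adjoint operator is `(ε, r)`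
so-pavable over `A`, then all Hermitian `k × k` matrices are `(ε', r)` pavable for every `ε' > ε`.
(3) If some nonzero projection of `A` has no minimal projection of `A` below it and `r ε < 1`,
then some self-adjoint operator is not `(ε, r)` so-pavable over `A`.
(4) `n_{A ⊆ B(H)}(ε)` is at most the finite dimensional paving number plus `⌊1/ε⌋ + 1`. -/
theorem result {H : Type*} [NormedAddCommGroup H] [InnerProductSpace ℂ H] [CompleteSpace H]
    (A : StarSubalgebra ℂ (H →L[ℂ] H)) (hA : IsMASA (fullAlgebra H) A) :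
    (∀ (ε : ℝ) (r₁ r₂ : ℕ), (∀ k, HasAtoms A k → MatrixPavable k ε r₁) → 1 < r₂ * ε →
      AllSoPavable (fullAlgebra H) A ε (r₁ + r₂)) ∧
    (∀ (k : ℕ), HasAtoms A k → ∀ (ε ε' : ℝ) (r : ℕ), AllSoPavable (fullAlgebra H) A ε r →
      ε < ε' → MatrixPavable k ε' r) ∧
    (∀ p₀ ∈ A, IsStarProjection p₀ → p₀ ≠ 0 → (∀ p, IsAtomProj A p → p₀ * p ≠ p) →
      ∀ (ε : ℝ) (r : ℕ), 1 ≤ r → 0 ≤ ε → r * ε < 1 → ¬ AllSoPavable (fullAlgebra H) A ε r) ∧
    (∀ ε : ℝ, 0 < ε →
      pavingNumber (fullAlgebra H) A ε ≤ matrixPavingNumber ε + ((⌊1 / ε⌋₊ + 1 : ℕ) : ℕ∞)) := by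
  refine ⟨fun ε r₁ r₂ hKS hr => allSoPavable_mixed hA hKS hr, ?_, ?_,
    fun ε hε => pavingNumber_le_matrix hA hε⟩
  · rintro k ⟨a, hat, hinj⟩ ε ε' r hall hε
    exact matrixPavable_of_atoms hA hat hinj hall hε
  · intro p₀ hp₀A hp₀ hne hno ε r hr1 hε hr
    exact not_allSoPavable_of_diffuse_part hA hp₀A hp₀ hne hno hr1 hε hr

end Vale.Agent.Results.P078.AllMasasOfBH
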