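import Vale.Agent.Lib.P078.Mixed.Final

namespace Vale.Agent.Results.P078.Combined

open Vale.Agent.Lib.P078

/-- the sharp bounds for a diffuse MASA of `B(H)`, from fine divisibility of its projections -/
theorem sharp_aux {H : Type*} [NormedAddCommGroup H] [InnerProductSpace ℂ H] [CompleteSpace H]
    {S : Set (H →L[ℂ] H)} {A : StarSubalgebra ℂ (H →L[ℂ] H)}
    (hSA : S ⊆ A) (hAc : ∀ a ∈ A, ∀ b ∈ A, a * b = b * a) (hS : FinelyDivisible S)
    {ζ : H} (hζ : ‖ζ‖ = 1) (ε : ℝ) (hε0 : 0 < ε) :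
    (∀ r : ℕ, 1 < r * ε → AllSoPavable (fullAlgebra H) A ε r) ∧
    (∀ r : ℕ, 1 ≤ r → r * ε < 1 → ¬ AllSoPavable (fullAlgebra H) A ε r) ∧
    ((⌈1 / ε⌉₊ : ℕ) : ℕ∞) ≤ pavingNumber (fullAlgebra H) A ε ∧
    pavingNumber (fullAlgebra H) A ε ≤ ((⌊1 / ε⌋₊ + 1 : ℕ) : ℕ∞) := by
  have hup : ∀ r : ℕ, 1 < r * ε → AllSoPavable (fullAlgebra H) A ε r :=
    fun r hr x _ hx => soPavable_of_finelyDivisible hSA hS hx hr
  have hlow : ∀ r : ℕ, 1 ≤ r → r * ε < 1 → ¬ AllSoPavable (fullAlgebra H) A ε r := by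
    intro r hr1 hr hall
    exact not_soPavable_reflection hSA hAc hS hζ hr1 hε0.le hr
      (hall _ (mem_fullAlgebra _) (reflection_isSelfAdjoint hζ))
  refine ⟨hup, hlow, ?_, ?_⟩
  · unfold pavingNumber
    apply le_sInf
    rintro n ⟨r, hr1, rfl, hall⟩
    rw [Nat.cast_le]
    by_contra hlt
    push Not at hlt
    have h1 : (r : ℝ) < 1 / ε := Nat.lt_ceil.mp hlt
    rw [lt_div_iff₀ hε0] at h1
    exact hlow r hr1 h1 hall
  · unfold pavingNumber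
    apply sInf_le
    refine ⟨⌊1 / ε⌋₊ + 1, Nat.succ_le_succ (Nat.zero_le _), rfl, hup _ ?_⟩
    have h1 : 1 / ε < ((⌊1 / ε⌋₊ + 1 : ℕ) : ℝ) := by
      push_cast
      exact Nat.lt_floor_add_one _
    rw [div_lt_iff₀ hε0] at h1
    exact h1

/-- So-paving over an arbitrary MASA `A` of `B(H)`, `H` any complex Hilbert space.
(1) If all Hermitian `k × k` matrices, `k` at most the number of minimal projections of `A`, are
`(ε, r₁)` pavable and `r₂ ε > 1`, then every self-adjoint operator is `(ε, r₁ + r₂)` so-pavable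
over `A`.
(2) If `A` has at least `k` minimal projections and every self-adjoint operator is `(ε, r)`
so-pavable over `A`, then all Hermitian `k × k` matrices are `(ε', r)` pavable for every `ε' > ε`.
(3) If some nonzero projection of `A` has no minimal projection of `A` below it and `r ε < 1`,
then some self-adjoint operator is not `(ε, r)` so-pavable over `A`.
(4) `n_{A ⊆ B(H)}(ε)` is at most the finite dimensional paving number plus `⌊1/ε⌋ + 1`.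
(5) If `H ≠ 0` and `A` is diffuse, then for `0 < ε < 1` every self-adjoint operator is `(ε, r)`
so-pavable when `r ε > 1`, some self-adjoint operator is not when `r ε < 1`, and so
`⌈1/ε⌉ ≤ n_{A ⊆ B(H)}(ε) ≤ ⌊1/ε⌋ + 1`. -/
theorem result {H : Type*} [NormedAddCommGroup H] [InnerProductSpace ℂ H] [CompleteSpace H]
    (A : StarSubalgebra ℂ (H →L[ℂ] H)) (hA : IsMASA (fullAlgebra H) A) :
    (∀ (ε : ℝ) (r₁ r₂ : ℕ), (∀ k, HasAtoms A k → MatrixPavable k ε r₁) → 1 < r₂ * ε →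
      AllSoPavable (fullAlgebra H) A ε (r₁ + r₂)) ∧
    (∀ (k : ℕ), HasAtoms A k → ∀ (ε ε' : ℝ) (r : ℕ), AllSoPavable (fullAlgebra H) A ε r →
      ε < ε' → MatrixPavable k ε' r) ∧
    (∀ p₀ ∈ A, IsStarProjection p₀ → p₀ ≠ 0 → (∀ p, IsAtomProj A p → p₀ * p ≠ p) →
      ∀ (ε : ℝ) (r : ℕ), 1 ≤ r → 0 ≤ ε → r * ε < 1 → ¬ AllSoPavable (fullAlgebra H) A ε r) ∧
    (∀ ε : ℝ, 0 < ε →
      pavingNumber (fullAlgebra H) A ε ≤ matrixPavingNumber ε + ((⌊1 / ε⌋₊ + 1 : ℕ) : ℕ∞)) ∧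
    (Nontrivial H → IsDiffuse A → ∀ ε : ℝ, 0 < ε → ε < 1 →
      (∀ r : ℕ, 1 < r * ε → AllSoPavable (fullAlgebra H) A ε r) ∧
      (∀ r : ℕ, 1 ≤ r → r * ε < 1 → ¬ AllSoPavable (fullAlgebra H) A ε r) ∧
      ((⌈1 / ε⌉₊ : ℕ) : ℕ∞) ≤ pavingNumber (fullAlgebra H) A ε ∧
      pavingNumber (fullAlgebra H) A ε ≤ ((⌊1 / ε⌋₊ + 1 : ℕ) : ℕ∞)) := by
  refine ⟨fun ε r₁ r₂ hKS hr => allSoPavable_mixed hA hKS hr, ?_, ?_,
    fun ε hε => pavingNumber_le_matrix hA hε, ?_⟩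
  · rintro k ⟨a, hat, hinj⟩ ε ε' r hall hε
    exact matrixPavable_of_atoms hA hat hinj hall hε
  · intro p₀ hp₀A hp₀ hne hno ε r hr1 hε hr
    exact not_allSoPavable_of_diffuse_part hA hp₀A hp₀ hne hno hr1 hε hr
  · intro hnt hd ε hε0 _
    obtain ⟨v, hv⟩ := exists_ne (0 : H)
    have hnv : ‖v‖ ≠ 0 := norm_ne_zero_iff.mpr hv
    have hζ : ‖((‖v‖⁻¹ : ℝ) : ℂ) • v‖ = 1 := by
      rw [norm_smul, Complex.norm_real, norm_inv, norm_norm, inv_mul_cancel₀ hnv]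
    exact sharp_aux (S := projSet A) (fun p hp => hp.1) hA.2.1
      (finelyDivisible_of_diffuse hA hd) hζ ε hε0

end Vale.Agent.Results.P078.Combined
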