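import Vale.Agent.Lib.P078.Main

namespace Vale.Agent.Results.P078.DiffuseMasaSharp

open Vale.Agent.Lib.P078

theorem result :
    ∃ (H : Type) (_ : NormedAddCommGroup H) (_ : InnerProductSpace ℂ H) (_ : CompleteSpace H)
      (A : StarSubalgebra ℂ (H →L[ℂ] H)),
      TopologicalSpace.SeparableSpace H ∧ IsMASA (fullAlgebra H) A ∧ IsDiffuse A ∧
      ∀ ε : ℝ, 0 < ε → ε < 1 →
        (∀ r : ℕ, 1 < r * ε → AllSoPavable (fullAlgebra H) A ε r) ∧
        (∀ r : ℕ, 1 ≤ r → r * ε < 1 → ¬ AllSoPavable (fullAlgebra H) A ε r) ∧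
        ((⌈1 / ε⌉₊ : ℕ) : ℕ∞) ≤ pavingNumber (fullAlgebra H) A ε ∧
        pavingNumber (fullAlgebra H) A ε ≤ ((⌊1 / ε⌋₊ + 1 : ℕ) : ℕ∞) := by
  obtain ⟨ζ, hζ⟩ := exists_unit_vector
  exact ⟨L2I, inferInstance, inferInstance, inferInstance, multAlgebra, separable_L2I,
    isMASA_multAlgebra, isDiffuse_multAlgebra, fun ε hε0 _ =>
      sharp_bounds indSet_subset_multAlgebra isMASA_multAlgebra.2.1 finelyDivisible_indSet hζ ε hε0⟩

end Vale.Agent.Results.P078.DiffuseMasaSharp
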